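import Vale.Agent.P359.Model
import Vale.Agent.P359.ModelEq
import Vale.Agent.P359.Final

/-!
# P359: the spectral gap of the spherical Laughlin Hamiltonian at filling 1/3
-/

namespace Vale.Agent.Results.P359.Gap

open Vale.Agent.P359.Model

/-- `laughlin N` is the vector of `⋀^N U_Q`, `Q = 3 (N - 1)`, with the polynomial
`∏_{i<j} (u_i v_j - u_j v_i)^3`; it is not zero and `H_{N,Q}` annihilates it. -/
def LaughlinZeroMode (N : ℕ) : Prop :=
  wave (laughlin N) = laughlinPoly N ∧ Antisymmetric (laughlin N) ∧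
    laughlin N ≠ 0 ∧ hamiltonian (laughlin N) = 0

/-- `H_{N,Q} ≥ δ (I - P_L)` on `⋀^N U_Q`, `Q = 3 (N - 1)` (which `H_{N,Q}` maps to itself):
`⟨ψ, H ψ⟩ ≥ δ (‖ψ‖² - |⟨L, ψ⟩|² / ‖L‖²)`. -/
def GapInequality (N : ℕ) (δ : ℝ) : Prop :=
  ∀ ψ : Vec N (3 * (N - 1)), Antisymmetric ψ → Antisymmetric (hamiltonian ψ) ∧
    δ * (normSq ψ - ‖dot (laughlin N) ψ‖ ^ 2 / normSq (laughlin N)) ≤ (dot ψ (hamiltonian ψ)).re

/-- On `⋀^N U_Q`, `Q = 3 (N - 1)`, the eigenvalue `0` of `H_{N,Q}` is simple (eigenvectors: the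
multiples of `laughlin N`) and all other eigenvalues are real and at least `δ`. -/
def SpectralGap (N : ℕ) (δ : ℝ) : Prop :=
  ∀ ψ : Vec N (3 * (N - 1)), Antisymmetric ψ → ψ ≠ 0 → ∀ μ : ℂ,
    hamiltonian ψ = (fun m => μ * ψ m) →
      (μ = 0 ∧ ∃ c : ℂ, ψ = fun m => c * laughlin N m) ∨ (μ.im = 0 ∧ δ ≤ μ.re)

/-- **The Laughlin gap on the sphere at filling `1/3`.**  There are `δ > 0` and `N₀` such that for
all `N ≥ N₀` the Laughlin vector is a nonzero fermionic zero mode of `H_{N,3(N-1)}` and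
`H_{N,3(N-1)} ≥ δ (I - P_{L,N})` on `⋀^N U_{3(N-1)}`; in particular the least eigenvalue `0` is
simple and every other eigenvalue is at least `δ`. -/
theorem result : ∃ δ : ℝ, 0 < δ ∧ ∃ N₀ : ℕ, ∀ N : ℕ, N₀ ≤ N →
    LaughlinZeroMode N ∧ GapInequality N δ ∧ SpectralGap N δ := by
  obtain ⟨δ, hδ, N₀, h⟩ := Vale.Agent.P359.laughlin_gap
  refine ⟨δ, hδ, N₀ + 2, fun N hN => ⟨⟨Vale.Agent.P359.wave_Laughlin,
    Vale.Agent.P359.Laughlin_anti, ?_, ?_⟩, ?_, ?_⟩⟩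
  · intro h0
    refine Vale.Agent.P359.Laughlin_ne_zero (N := N) ?_
    rw [← laughlin_eq, h0]
    rfl
  · apply up_inj
    rw [hamiltonian_eq, laughlin_eq, Vale.Agent.P359.Ham_Laughlin (by omega)]
    rfl
  · intro ψ hψ
    refine ⟨?_, ?_⟩
    · rw [antisymmetric_iff, hamiltonian_eq]
      exact Vale.Agent.P359.Ham_anti (by omega) hψ
    · have h1 := h N (by omega) (up ψ) hψ
      rw [normSq_eq, normSq_eq, dot_eq, dot_eq, hamiltonian_eq, laughlin_eq]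
      rwa [dist_line _ _ Vale.Agent.P359.Laughlin_ne_zero] at h1
  · intro ψ hψ h0 μ hμ
    have h1 : Vale.Agent.P359.Ham N (3 * (N - 1)) (up ψ) = μ • up ψ := by
      rw [← hamiltonian_eq, hμ]
      rfl
    have h2 : up ψ ≠ 0 := fun hz => h0 (up_inj hz)
    rcases Vale.Agent.P359.spec_of_gap _ Vale.Agent.P359.Ham_symm
      (Vale.Agent.P359.Laughlin N) (Vale.Agent.P359.Ham_Laughlin (by omega)) δ hδ (up ψ) h2 μ h1
      (h N (by omega) (up ψ) hψ) with ⟨h3, c, h4⟩ | h3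
    · exact Or.inl ⟨h3, c, up_inj h4⟩
    · exact Or.inr h3

end Vale.Agent.Results.P359.Gap
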