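import Vale.Agent.P359.Model
import Vale.Agent.P359.ModelEq
import Vale.Agent.P359.GapAll

/-!
# P359: a uniform spectral gap of the spherical Laughlin Hamiltonian at every flux and every
particle number, and its consequence at filling 1/3
-/

namespace Vale.Agent.Results.P359.GapAll

open Vale.Agent.P359.Model

/-- `ψ ∈ ⋀^N U_Q` is orthogonal to all zero states of `H_{N,Q}` in `⋀^N U_Q`. -/
def OrthZero {N Q : ℕ} (ψ : Vec N Q) : Prop :=
  ∀ φ : Vec N Q, Antisymmetric φ → hamiltonian φ = 0 → dot φ ψ = 0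

/-- `⟨ψ, H_{N,Q} ψ⟩ ≥ δ ‖ψ‖²` for all `ψ ∈ ⋀^N U_Q` orthogonal to the zero states in `⋀^N U_Q`
(the space `⋀^N U_Q` is mapped to itself). -/
def UniformGap (N Q : ℕ) (δ : ℝ) : Prop :=
  ∀ ψ : Vec N Q, Antisymmetric ψ → Antisymmetric (hamiltonian ψ) ∧
    (OrthZero ψ → δ * normSq ψ ≤ (dot ψ (hamiltonian ψ)).re)

/-- Every eigenvalue of `H_{N,Q}` on `⋀^N U_Q` is zero, or real and at least `δ`. -/
def NoSmallEigenvalue (N Q : ℕ) (δ : ℝ) : Prop :=
  ∀ ψ : Vec N Q, Antisymmetric ψ → ψ ≠ 0 → ∀ μ : ℂ,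
    hamiltonian ψ = (fun m => μ * ψ m) → μ = 0 ∨ (μ.im = 0 ∧ δ ≤ μ.re)

/-- `laughlin N` is the vector of `⋀^N U_Q`, `Q = 3 (N - 1)`, with the polynomial
`∏_{i<j} (u_i v_j - u_j v_i)^3`; it is not zero, `H_{N,Q}` annihilates it, and every zero state of
`H_{N,Q}` in `⋀^N U_Q` is a multiple of it. -/
def LaughlinZeroSpace (N : ℕ) : Prop :=
  (wave (laughlin N) = laughlinPoly N ∧ Antisymmetric (laughlin N) ∧
    laughlin N ≠ 0 ∧ hamiltonian (laughlin N) = 0) ∧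
  ∀ ψ : Vec N (3 * (N - 1)), Antisymmetric ψ → hamiltonian ψ = 0 →
    ∃ c : ℂ, ψ = fun m => c * laughlin N m

/-- `H_{N,Q} ≥ δ (I - P_L)` on `⋀^N U_Q`, `Q = 3 (N - 1)`:
`⟨ψ, H ψ⟩ ≥ δ (‖ψ‖² - |⟨L, ψ⟩|² / ‖L‖²)`. -/
def GapInequality (N : ℕ) (δ : ℝ) : Prop :=
  ∀ ψ : Vec N (3 * (N - 1)), Antisymmetric ψ →
    δ * (normSq ψ - ‖dot (laughlin N) ψ‖ ^ 2 / normSq (laughlin N)) ≤ (dot ψ (hamiltonian ψ)).re

theorem gap_of_orth {N Q : ℕ} {δ : ℝ} (hQ : 1 ≤ Q)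
    (h : ∀ ψ ∈ Vale.Agent.P359.Anti N Q, δ * ‖ψ - (Vale.Agent.P359.Anti N Q ⊓
      LinearMap.ker (Vale.Agent.P359.Ham N Q).toLinearMap).starProjection ψ‖ ^ 2 ≤
        (inner ℂ ψ (Vale.Agent.P359.Ham N Q ψ)).re) : UniformGap N Q δ := by
  intro ψ hψ
  refine ⟨?_, fun ho => ?_⟩
  · rw [antisymmetric_iff, hamiltonian_eq]
    exact Vale.Agent.P359.Ham_anti hQ hψ
  · have h1 := h (up ψ) hψ
    have h2 : (Vale.Agent.P359.Anti N Q ⊓
        LinearMap.ker (Vale.Agent.P359.Ham N Q).toLinearMap).starProjection (up ψ) = 0 := by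
      rw [Submodule.starProjection_apply_eq_zero_iff, Submodule.mem_orthogonal]
      rintro x ⟨hx1, hx2⟩
      have h3 := ho (WithLp.ofLp x) hx1 (up_inj (by
        rw [hamiltonian_eq]
        exact LinearMap.mem_ker.1 hx2))
      rw [dot_eq] at h3
      exact h3
    rw [h2, sub_zero] at h1
    rw [normSq_eq, dot_eq, hamiltonian_eq]
    exact h1

theorem eig_of_gap {N Q : ℕ} {δ : ℝ} (hg : UniformGap N Q δ) :
    NoSmallEigenvalue N Q δ := by
  intro ψ hψ h0 μ hμ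
  have hup : up ψ ≠ 0 := fun hz => h0 (up_inj hz)
  have hH : Vale.Agent.P359.Ham N Q (up ψ) = μ • up ψ := by
    rw [← hamiltonian_eq, hμ]
    rfl
  have hn : (0 : ℝ) < ‖up ψ‖ ^ 2 := by
    have := norm_pos_iff.2 hup
    positivity
  -- `μ` is real
  have hs := Vale.Agent.P359.Ham_symm (up ψ) (up ψ)
  rw [hH, inner_smul_left, inner_smul_right] at hs
  have hin : inner ℂ (up ψ) (up ψ) ≠ (0 : ℂ) := inner_self_ne_zero.2 hup
  have him : (starRingEnd ℂ) μ = μ := mul_right_cancel₀ hin hs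
  have him2 : μ.im = 0 := Complex.conj_eq_iff_im.1 him
  by_cases hz : μ = 0
  · exact Or.inl hz
  right
  refine ⟨him2, ?_⟩
  have ho : OrthZero ψ := by
    intro φ hφ hφ0
    have e1 := Vale.Agent.P359.Ham_symm (up φ) (up ψ)
    rw [← hamiltonian_eq φ, hφ0, hH, inner_smul_right] at e1
    have e2 : up (0 : Vec N Q) = 0 := rfl
    rw [e2, inner_zero_left] at e1
    rw [dot_eq]
    rcases mul_eq_zero.1 e1.symm with h | h
    · exact absurd h hz
    · exact h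
  have h1 := (hg ψ hψ).2 ho
  rw [normSq_eq, dot_eq, hamiltonian_eq, hH, inner_smul_right, inner_self_eq_norm_sq_to_K] at h1
  have h2 : (μ * ((‖up ψ‖ : ℂ)) ^ 2).re = μ.re * ‖up ψ‖ ^ 2 := by
    rw [← Complex.ofReal_pow, Complex.re_mul_ofReal]
  have h3 : δ * ‖up ψ‖ ^ 2 ≤ μ.re * ‖up ψ‖ ^ 2 := by
    calc δ * ‖up ψ‖ ^ 2 ≤ _ := h1
      _ = _ := h2
  exact le_of_mul_le_mul_right h3 hn

/-- **Uniform gap at every flux and every particle number, and the Laughlin gap.**  There is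
`δ > 0` such that for all sufficiently large fluxes `Q` and for all particle numbers `N`,
`H_{N,Q} ≥ δ` on the orthogonal complement of its zero states in `⋀^N U_Q`, and all nonzero
eigenvalues of `H_{N,Q}` on `⋀^N U_Q` are at least `δ`; moreover for all large `N` the zero space at
`Q = 3 (N - 1)` is spanned by the Laughlin vector and `H_{N,3(N-1)} ≥ δ (I - P_{L,N})`. -/
theorem result : ∃ δ : ℝ, 0 < δ ∧
    (∃ Q₀ : ℕ, ∀ Q : ℕ, Q₀ ≤ Q → ∀ N : ℕ, UniformGap N Q δ ∧ NoSmallEigenvalue N Q δ) ∧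
    ∃ N₀ : ℕ, ∀ N : ℕ, N₀ ≤ N → LaughlinZeroSpace N ∧ GapInequality N δ := by
  obtain ⟨δ, hδ, Q₀, h⟩ := Vale.Agent.P359.gap_all
  refine ⟨δ, hδ, ⟨Q₀ + 1, fun Q hQ N => ?_⟩, Q₀ + 2, fun N hN => ⟨⟨⟨Vale.Agent.P359.wave_Laughlin,
    Vale.Agent.P359.Laughlin_anti, ?_, ?_⟩, ?_⟩, ?_⟩⟩
  · have hg := gap_of_orth (N := N) (by omega) (h Q (by omega) N)
    exact ⟨hg, eig_of_gap hg⟩
  · intro h0
    refine Vale.Agent.P359.Laughlin_ne_zero (N := N) ?_
    rw [← laughlin_eq, h0]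
    rfl
  · apply up_inj
    rw [hamiltonian_eq, laughlin_eq, Vale.Agent.P359.Ham_Laughlin (by omega)]
    rfl
  · intro ψ hψ h0
    have h1 : Vale.Agent.P359.Ham N (3 * (N - 1)) (up ψ) = 0 := by
      rw [← hamiltonian_eq, h0]
      rfl
    obtain ⟨c, hc⟩ := Vale.Agent.P359.kernel (by omega) hψ h1
    exact ⟨c, up_inj hc⟩
  · intro ψ hψ
    have h1 := h (3 * (N - 1)) (by omega) N (up ψ) hψ
    have h2 : Vale.Agent.P359.Anti N (3 * (N - 1)) ⊓
        LinearMap.ker (Vale.Agent.P359.Ham N (3 * (N - 1))).toLinearMap =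
        Submodule.span ℂ {Vale.Agent.P359.Laughlin N} := by
      apply le_antisymm
      · rintro x ⟨hx1, hx2⟩
        obtain ⟨c, hc⟩ := Vale.Agent.P359.kernel (by omega) hx1 (LinearMap.mem_ker.1 hx2)
        rw [hc]
        exact Submodule.smul_mem _ _ (Submodule.mem_span_singleton_self _)
      · rw [Submodule.span_singleton_le_iff_mem]
        exact ⟨Vale.Agent.P359.Laughlin_anti,
          LinearMap.mem_ker.2 (Vale.Agent.P359.Ham_Laughlin (by omega))⟩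
    have h3 : (Vale.Agent.P359.Anti N (3 * (N - 1)) ⊓
        LinearMap.ker (Vale.Agent.P359.Ham N (3 * (N - 1))).toLinearMap).starProjection (up ψ) =
        (Submodule.span ℂ {Vale.Agent.P359.Laughlin N}).starProjection (up ψ) := by
      congr 1
      congr 1
    rw [h3, dist_line _ _ Vale.Agent.P359.Laughlin_ne_zero] at h1
    rw [normSq_eq, normSq_eq, dot_eq, dot_eq, hamiltonian_eq, laughlin_eq]
    exact h1

end Vale.Agent.Results.P359.GapAll
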